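import Vale.Agent.P323.H533.Words

/-!
# Pullbacks of words
Splitting lemmas, cancellation, and (weak) pullbacks in the calculus of reduced words.
-/

namespace Vale.Agent.P323.H533

open CategoryTheory Vale.Agent.P323.Z

universe v u w w'

namespace Letters

variable {D : Type u} [Category.{v} D] {L : Letters.{v, u, w, w'} D}

theorem Good.cancel (hG : L.Good) {x y z : D} {f g : x ⟶ y} (h : y ⟶ z)
    (e : f ≫ h = g ≫ h) : f = g := by
  have := hG.mono h
  exact (cancel_mono h).1 e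

/-- `bet` is never split. -/
theorem Good.split (hG : L.Good) (t : L.T) {x : D} (om : L.H t x)
    (h : L.H t (L.a (L.n t))) (e : om = L.hm t (L.bet t om) h) : False := by
  have h1 : L.gam t om = L.gam t h ≫ L.bet t om := by
    conv_lhs => rw [e]
    exact L.gam_nat t _ _
  apply hG.io_ns (L.n t)
  refine ⟨L.gam t h, hG.cancel (L.gam t om) ?_⟩
  rw [Category.id_comp, Category.assoc]
  exact h1.symm

/-- Two-letter version of `split`. -/
theorem Good.split₂ (hG : L.Good) (t t' : L.T) {x : D} (om : L.H t x)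
    (om' : L.H t' x) (h : L.H t (L.a (L.n t'))) (h' : L.H t' (L.a (L.n t)))
    (e : om = L.hm t (L.bet t' om') h) (e' : om' = L.hm t' (L.bet t om) h') : False := by
  have h1 : L.gam t om = L.gam t h ≫ L.bet t' om' := by
    conv_lhs => rw [e]
    exact L.gam_nat t _ _
  have h2 : L.gam t' om' = L.gam t' h' ≫ L.bet t om := by
    conv_lhs => rw [e']
    exact L.gam_nat t' _ _
  apply hG.io_ns (L.n t)
  refine ⟨L.gam t h ≫ L.io _ ≫ L.gam t' h', hG.cancel (L.gam t om) ?_⟩
  rw [Category.id_comp]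
  conv_rhs => rw [h1, Letters.bet, h2, Letters.bet]
  simp only [Category.assoc]

theorem W.old_inj {d x : D} {f f' : d ⟶ x} (h : (W.old f : L.W d x) = W.old f') : f = f' := by
  injection h

theorem W.new_inj {d x : D} {t t' : L.T} {om : L.H t x} {om' : L.H t' x}
    {m : L.W d (L.c t)} {m' : L.W d (L.c t')} (h : W.new t om m = W.new t' om' m') :
    t = t' ∧ HEq om om' ∧ HEq m m' := by
  injection h with h₀ h₁ h₂ h₃
  exact ⟨h₁, h₂, h₃⟩

/-- A new word which factors through an old map. -/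
theorem W.new_eq_post {d x y : D} {t : L.T} {om : L.H t x} {m : L.W d (L.c t)} {f : y ⟶ x}
    {z : L.W d y} (h : W.new t om m = z.post f) :
    ∃ om' : L.H t y, om = L.hm t f om' ∧ z = W.new t om' m := by
  cases z with
  | old g => simp [W.post] at h
  | new t' om' m' =>
    obtain ⟨h₁, h₂, h₃⟩ := W.new_inj h
    subst h₁
    exact ⟨om', eq_of_heq h₂, by rw [eq_of_heq h₃]⟩

theorem mkw_cases {d : D} (t : L.T) (m : L.W d (L.c t)) :
    (∃ w2 : L.W d (L.a (L.n t)), w2.post (L.al t) = m) ∨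
      ¬ ∃ w2 : L.W d (L.a (L.n t)), w2.post (L.al t) = m := em _

theorem Good.mkw_inj (hG : L.Good) {d x : D} (t : L.T) (om : L.H t x) {m m' : L.W d (L.c t)}
    (h : mkw L t om m = mkw L t om m') : m = m' := by
  rcases mkw_cases t m with ⟨w2, rfl⟩ | h₁
  · rcases mkw_cases t m' with ⟨w2', rfl⟩ | h₂
    · rw [hG.mkw_al, hG.mkw_al] at h
      rw [hG.post_inj _ h]
    · rw [hG.mkw_al, mkw_new _ _ _ h₂] at h
      obtain ⟨om', h₃, -⟩ := W.new_eq_post h.symm
      exact (hG.split _ _ _ h₃).elim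
  · rcases mkw_cases t m' with ⟨w2', rfl⟩ | h₂
    · rw [hG.mkw_al, mkw_new _ _ _ h₁] at h
      obtain ⟨om', h₃, -⟩ := W.new_eq_post h
      exact (hG.split _ _ _ h₃).elim
    · rw [mkw_new _ _ _ h₁, mkw_new _ _ _ h₂] at h
      injection h

/-- Cancellation. -/
theorem Good.comp_inj (hG : L.Good) {d e x : D} {z z' : L.W d e} (m : L.W e x)
    (h : comp z m = comp z' m) : z = z' := by
  induction m with
  | old g => exact hG.post_inj _ h
  | new t om m ih => exact ih (hG.mkw_inj _ _ h)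

/-- (E3) -/
theorem W.old_of_post {d x y : D} {f : x ⟶ y} {m : L.W d x} {g : d ⟶ y}
    (h : m.post f = W.old g) : ∃ g', m = W.old g' := by
  cases m with
  | old u => exact ⟨_, rfl⟩
  | new t om m => simp [W.post] at h

/-- Old/old: pullback squares of `D` stay pullback squares. -/
theorem Good.pb_old (hG : L.Good) {z x y b : D} {p : z ⟶ x} {q : z ⟶ y} {f : x ⟶ b}
    {g : y ⟶ b} (h : IsPB p q f g) {e : D} (u : L.W e x) (v : L.W e y)
    (huv : u.post f = v.post g) : ∃ m : L.W e z, m.post p = u ∧ m.post q = v := by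
  cases u with
  | old u =>
    cases v with
    | old v =>
      obtain ⟨w, hw₁, hw₂⟩ := h.2 u v (W.old_inj huv)
      exact ⟨.old w, by rw [W.post, hw₁], by rw [W.post, hw₂]⟩
    | new t om m => simp [W.post] at huv
  | new t om m =>
    cases v with
    | old v => simp [W.post] at huv
    | new t' om' m' =>
      obtain ⟨h₁, h₂, h₃⟩ := W.new_inj huv
      subst h₁
      obtain ⟨om₀, h₄, h₅⟩ := hG.H_pb t h om om' (eq_of_heq h₂)
      exact ⟨.new t om₀ m, by rw [W.post, h₄], by rw [W.post, h₅, eq_of_heq h₃]⟩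

/-- New/old: either `x` factors through the old map `d`, or there is a pullback with both
projections old. -/
theorem Good.pb_new_old (hG : L.Good) {e b : D} (x : L.W e b) (hx : x.Red) :
    ∀ {y : D} (d : y ⟶ b), (∃ x' : L.W e y, x = x'.post d) ∨
      ∃ (P : D) (p : P ⟶ e) (q : P ⟶ y), comp (.old p) x = .old (q ≫ d) ∧
        ∀ {e' : D} (u : L.W e' e) (v : L.W e' y), comp u x = v.post d →
          ∃ m : L.W e' P, m.post p = u ∧ m.post q = v := by
  induction x with
  | old x =>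
    intro y d
    obtain ⟨P, p, q, h⟩ := hG.pb x d
    refine Or.inr ⟨P, p, q, ?_, fun u v huv => hG.pb_old h u v huv⟩
    rw [comp_old, W.post, h.1]
  | @new b t om x ih =>
    intro y d
    by_cases hd : ∃ om' : L.H t y, om = L.hm t d om'
    · obtain ⟨om', rfl⟩ := hd
      exact Or.inl ⟨.new t om' x, rfl⟩
    · right
      obtain ⟨z, g, h, hgh⟩ := hG.pb (L.bet t om) d
      obtain ⟨x', hx'⟩ | ⟨P, p, q, h₁, h₂⟩ := ih hx.1 (g ≫ L.al t)
      · exact (hx.2 ⟨x'.post g, by rw [W.post_post, hx']⟩).elim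
      · refine ⟨P, p, q ≫ h, ?_, ?_⟩
        · have e₁ : (W.old (q ≫ g ≫ L.al t) : L.W P (L.c t)) = (W.old (q ≫ g)).post (L.al t) := by
            rw [W.post, Category.assoc]
          rw [comp_new, h₁, e₁, hG.mkw_al, W.post, Category.assoc, hgh.1, Category.assoc]
        · intro e' u v huv
          rw [comp_new] at huv
          rcases mkw_cases t (comp u x) with ⟨w2, hw⟩ | hw
          · rw [← hw, hG.mkw_al] at huv
            obtain ⟨m, hm₁, hm₂⟩ := hG.pb_old hgh w2 v huv
            obtain ⟨m', hm'₁, hm'₂⟩ := h₂ u m (by rw [← hw, ← hm₁, W.post_post])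
            exact ⟨m', hm'₁, by rw [← W.post_post, hm'₂, hm₂]⟩
          · rw [mkw_new _ _ _ hw] at huv
            obtain ⟨om', h₃, -⟩ := W.new_eq_post huv
            exact (hd ⟨om', h₃⟩).elim

/-- A cospan of words has a pullback. -/
def HasPB {d d' b : D} (x : L.W d b) (x' : L.W d' b) : Prop :=
  ∃ (P : D) (p : L.W P d) (q : L.W P d'), p.Red ∧ q.Red ∧ comp p x = comp q x' ∧
    ∀ {e : D} (u : L.W e d) (v : L.W e d'), u.Red → v.Red → comp u x = comp v x' →
      ∃ m : L.W e P, m.Red ∧ comp m p = u ∧ comp m q = v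

theorem HasPB.symm {d d' b : D} {x : L.W d b} {x' : L.W d' b} (h : HasPB x x') :
    HasPB x' x := by
  obtain ⟨P, p, q, hp, hq, h₁, h₂⟩ := h
  refine ⟨P, q, p, hq, hp, h₁.symm, fun u v hu hv huv => ?_⟩
  obtain ⟨m, hm, hm₁, hm₂⟩ := h₂ v u hv hu huv.symm
  exact ⟨m, hm, hm₂, hm₁⟩

/-- Any word against an old map. -/
theorem Good.hasPB_old (hG : L.Good) {d y b : D} (x : L.W d b) (hx : x.Red) (f : y ⟶ b) :
    HasPB x (.old f) := by
  obtain ⟨x', hx'⟩ | ⟨P, p, q, h₁, h₂⟩ := hG.pb_new_old x hx f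
  · refine ⟨d, .old (𝟙 d), x', trivial, W.red_of_post (hx' ▸ hx), ?_, ?_⟩
    · rw [id_comp' x hx, comp_old, hx']
    · intro e u v hu hv huv
      refine ⟨u, hu, comp_id' u, ?_⟩
      rw [comp_old, hx', hG.comp_post] at huv
      exact hG.post_inj _ huv
  · refine ⟨P, .old p, .old q, trivial, trivial, ?_, ?_⟩
    · rw [h₁]; rfl
    · intro e u v hu hv huv
      obtain ⟨m, hm₁, hm₂⟩ := h₂ u v huv
      exact ⟨m, W.red_of_post (hm₁ ▸ hu), hm₁, hm₂⟩

/-- The case in which every common point lies in the old subobject `bet t' om'`. -/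
theorem Good.hasPB_new_new (hG : L.Good) {d d' b : D} (t t' : L.T) (om : L.H t b)
    (om' : L.H t' b) (x : L.W d (L.c t)) (x' : L.W d' (L.c t'))
    (hx : (W.new t om x : L.W d b).Red) (hx' : (W.new t' om' x' : L.W d' b).Red)
    (hne : ¬ (t = t' ∧ HEq om om'))
    (hd : ¬ ∃ h : L.H t' (L.a (L.n t)), om' = L.hm t' (L.bet t om) h) :
    HasPB (W.new t om x : L.W d b) (W.new t' om' x' : L.W d' b) := by
  have key : ∀ {e : D} (u : L.W e d) (v : L.W e d'),
      comp u (W.new t om x : L.W d b) = comp v (W.new t' om' x' : L.W d' b) →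
      ∃ w2 : L.W e (L.a (L.n t')),
        comp v (W.new t' om' x' : L.W d' b) = w2.post (L.bet t' om') := by
    intro e u v huv
    rcases mkw_cases t' (comp v x') with ⟨w2, hw⟩ | hw
    · exact ⟨w2, by rw [comp_new, ← hw, hG.mkw_al]⟩
    · exfalso
      rw [comp_new, comp_new, mkw_new _ _ _ hw] at huv
      rcases mkw_cases t (comp u x) with ⟨w3, hw3⟩ | hw3
      · rw [← hw3, hG.mkw_al] at huv
        obtain ⟨om₁, h₁, -⟩ := W.new_eq_post huv.symm
        exact hd ⟨om₁, h₁⟩
      · rw [mkw_new _ _ _ hw3] at huv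
        obtain ⟨h₁, h₂, -⟩ := W.new_inj huv
        exact hne ⟨h₁, h₂⟩
  obtain ⟨x'', hx''⟩ | ⟨P, p, q, h₁, h₂⟩ := hG.pb_new_old _ hx' (L.bet t' om')
  · obtain ⟨om₁, h₁, -⟩ := W.new_eq_post hx''
    exact (hG.split _ _ _ h₁).elim
  · obtain ⟨Q, r, s, hr, hs, h₃, h₄⟩ := hG.hasPB_old _ hx (q ≫ L.bet t' om')
    refine ⟨Q, r, s.post p, hr, hs.post p, ?_, ?_⟩
    · rw [h₃, ← h₁, hG.comp_assoc, comp_old]
    · intro e u v hu hv huv
      obtain ⟨w2, hw2⟩ := key u v huv
      obtain ⟨m, hm₁, hm₂⟩ := h₂ v w2 hw2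
      have hm : m.Red := W.red_of_post (hm₁ ▸ hv)
      obtain ⟨m', hm', hm'₁, hm'₂⟩ := h₄ u m hu hm (by
        rw [huv, ← h₁, hG.comp_assoc, comp_old, hm₁])
      exact ⟨m', hm', hm'₁, by rw [hG.comp_post, hm'₂, hm₁]⟩

/-- All cospans of reduced words have pullbacks. -/
theorem Good.hasPB (hG : L.Good) {d b : D} (x : L.W d b) (hx : x.Red) :
    ∀ {d' : D} (x' : L.W d' b), x'.Red → HasPB x x' := by
  induction x with
  | old f => exact fun x' hx' => (hG.hasPB_old x' hx' f).symm
  | @new b t om x ih =>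
    intro d' x' hx'
    cases x' with
    | old f => exact hG.hasPB_old _ hx f
    | new t' om' x' =>
      by_cases hne : t = t' ∧ HEq om om'
      · obtain ⟨h₁, h₂⟩ := hne
        subst h₁
        have h₂ := eq_of_heq h₂
        subst h₂
        obtain ⟨P, p, q, hp, hq, h₁, h₂⟩ := ih hx.1 x' hx'.1
        refine ⟨P, p, q, hp, hq, by rw [comp_new, comp_new, h₁], fun u v hu hv huv => ?_⟩
        exact h₂ u v hu hv (hG.mkw_inj _ _ huv)
      · by_cases hd : ∃ h : L.H t' (L.a (L.n t)), om' = L.hm t' (L.bet t om) h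
        · refine (hG.hasPB_new_new t' t om' om x' x hx' hx ?_ ?_).symm
          · rintro ⟨h₁, h₂⟩
            exact hne ⟨h₁.symm, h₂.symm⟩
          · rintro ⟨h, hh⟩
            obtain ⟨h', hh'⟩ := hd
            exact hG.split₂ t t' om om' h h' hh hh'
        · exact hG.hasPB_new_new t t' om om' x x' hx hx' hne hd

end Letters

end Vale.Agent.P323.H533
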