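import Vale.Agent.P323.H533.Cat
import Vale.Agent.P323.H938.Pull

/-!
# Pullbacks in the category of reduced words
-/

namespace Vale.Agent.P323.H533

open CategoryTheory Vale.Agent.P323.Z

universe v u w w'

namespace Letters

variable {D : Type u} [Category.{v} D] {L : Letters.{v, u, w, w'} D} (hG : L.Good)

/-- The inclusion preserves pullback squares. -/
theorem pb_inc {z x y b : D} {p : z ⟶ x} {q : z ⟶ y} {f : x ⟶ b} {g : y ⟶ b}
    (h : IsPB p q f g) : IsPB (inc hG p) (inc hG q) (inc hG f) (inc hG g) := by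
  refine ⟨by rw [← inc_comp, ← inc_comp, h.1], fun {e} u v huv => ?_⟩
  obtain ⟨m, hm₁, hm₂⟩ := hG.pb_old h (wd hG u) (wd hG v) (congrArg (wd hG) huv)
  exact ⟨mkh hG m (W.red_of_post (hm₁ ▸ wd_red hG u)), wd_inj hG hm₁, wd_inj hG hm₂⟩

/-- Any map against an old map: it factors, or there is a pullback with both projections old. -/
theorem pb_new_old {d : WC hG} {b : D} (x : d ⟶ ob hG b) {y : D} (f : y ⟶ b) :
    Thru x (inc hG f) ∨ ∃ (P : D) (p : P ⟶ d.un) (q : P ⟶ y),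
      IsPB (x := d) (inc hG p) (inc hG q) x (inc hG f) := by
  obtain ⟨x', hx'⟩ | ⟨P, p, q, h₁, h₂⟩ := hG.pb_new_old (wd hG x) (wd_red hG x) f
  · exact Or.inl ⟨mkh hG x' (W.red_of_post (hx' ▸ wd_red hG x)), wd_inj hG hx'.symm⟩
  · refine Or.inr ⟨P, p, q, ?_, fun {e} u v huv => ?_⟩
    · apply wd_inj
      rw [← inc_comp, wd_inc]
      exact h₁
    · obtain ⟨m, hm₁, hm₂⟩ := h₂ (wd hG u) (wd hG v) (congrArg (wd hG) huv)
      exact ⟨mkh hG m (W.red_of_post (hm₁ ▸ wd_red hG u)), wd_inj hG hm₁, wd_inj hG hm₂⟩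

/-- All cospans of `D[F]` have pullbacks. -/
theorem pb_cat {x y b : WC hG} (f : x ⟶ b) (g : y ⟶ b) :
    ∃ (z : WC hG) (p : z ⟶ x) (q : z ⟶ y), IsPB p q f g := by
  obtain ⟨P, p, q, hp, hq, h₁, h₂⟩ := hG.hasPB (wd hG f) (wd_red hG f) (wd hG g) (wd_red hG g)
  refine ⟨ob hG P, mkh hG p hp, mkh hG q hq, wd_inj hG h₁, fun {e} u v huv => ?_⟩
  obtain ⟨m, hm, hm₁, hm₂⟩ := h₂ (wd hG u) (wd hG v) (wd_red hG u) (wd_red hG v)
    (congrArg (wd hG) huv)
  exact ⟨mkh hG m hm, wd_inj hG hm₁, wd_inj hG hm₂⟩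

end Letters

end Vale.Agent.P323.H533
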